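import Mathlib

/-!
# Row 211, S0326: interface definitions for the square-cover statement

* `Jfun V h p = 1 / √(1 + (V p 0)² + h² (V p 1)²)` — the cost density of S0326;
* `SqCover V L h D' cost` — verbatim the conclusion of S0326 for the set `D'` with cost bound `cost`;
* `LocalCover D V L h` — the local statement consumed by `sqCover_of_local` (file `Global.lean`).
-/

set_option autoImplicit false

namespace Crest.Agent.Helper19

open MeasureTheory

/-- The plane. -/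
abbrev E2 := EuclideanSpace ℝ (Fin 2)

/-- The cost density of S0326. -/
noncomputable def Jfun (V : E2 → E2) (h : ℝ) (p : E2) : ℝ :=
  1 / Real.sqrt (1 + (V p 0) ^ 2 + h ^ 2 * (V p 1) ^ 2)

/-- The conclusion of S0326 for the set `D'`, with the cost bounded by `cost`. -/
def SqCover (V : E2 → E2) (L h : ℝ) (D' : Set E2) (cost : ℝ) : Prop :=
  ∃ (k : ℕ) (c a b g : Fin k → E2),
    (∀ i, a i ≠ 0 ∧ ‖b i‖ = ‖a i‖ ∧ inner ℝ (a i) (b i) = 0) ∧
    {z : ℝ × E2 | ∃ p ∈ D', |z.1| ≤ L ∧ z.2 = p + z.1 • V p} ⊆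
      ⋃ i, {z : ℝ × E2 | ∃ x ∈ Set.Icc (0 : ℝ) 1, ∃ y ∈ Set.Icc (0 : ℝ) 1,
        z.2 = c i + x • a i + y • b i + z.1 • g i} ∧
    ∑ i, ‖a i‖ ^ 2 / Real.sqrt (1 + (g i 0) ^ 2 + h ^ 2 * (g i 1) ^ 2) ≤ cost

/-- The local covering statement: compact pieces of `D` of small diameter admit square covers of
cost at most `(1 + θ) ∫_{D'} J + θ |D'| + ε'`. -/
def LocalCover (D : Set E2) (V : E2 → E2) (L h : ℝ) : Prop :=
  ∀ θ : ℝ, 0 < θ → ∃ δ : ℝ, 0 < δ ∧ ∀ D' : Set E2, D' ⊆ D → IsCompact D' →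
    (∀ x ∈ D', ∀ y ∈ D', dist x y ≤ δ) → ∀ ε' : ℝ, 0 < ε' →
      SqCover V L h D' ((1 + θ) * (∫ p in D', Jfun V h p) + θ * (volume D').toReal + ε')

end Crest.Agent.Helper19
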