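import Crest.Agent.Helper19.Ruled.Global

/-!
# Row 211, S0326: the statement from `LocalCover`

`s0326_of_localCover`: the conclusion of S0326 (verbatim) from the data of S0326 and `LocalCover`.
-/

set_option autoImplicit false

namespace Crest.Agent.Helper19

open MeasureTheory Set Metric Topology Filter

theorem continuousOn_Jfun {D : Set E2} {V : E2 → E2} (hV : ContinuousOn V D) (h : ℝ) :
    ContinuousOn (Jfun V h) D := by
  unfold Jfun
  have h0 : ContinuousOn (fun p => V p 0) D := (PiLp.continuous_apply 2 _ 0).comp_continuousOn hV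
  have h1 : ContinuousOn (fun p => V p 1) D := (PiLp.continuous_apply 2 _ 1).comp_continuousOn hV
  have hs : ContinuousOn (fun p => 1 + (V p 0) ^ 2 + h ^ 2 * (V p 1) ^ 2) D :=
    (continuousOn_const.add (h0.pow 2)).add (continuousOn_const.mul (h1.pow 2))
  refine continuousOn_const.div (Real.continuous_sqrt.comp_continuousOn hs) fun p _ => ?_
  have : 0 < 1 + (V p 0) ^ 2 + h ^ 2 * (V p 1) ^ 2 := by positivity
  exact (Real.sqrt_pos.2 this).ne'

/-- The conclusion of S0326 from `LocalCover` (the hypotheses `htr`, `hdet` of S0326 are only used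
to prove `LocalCover`). -/
theorem s0326_of_localCover
    (D : Set (EuclideanSpace ℝ (Fin 2))) (hD : IsCompact D)
    (V : EuclideanSpace ℝ (Fin 2) → EuclideanSpace ℝ (Fin 2)) (U : Set (EuclideanSpace ℝ (Fin 2)))
    (_hU : IsOpen U) (hDU : D ⊆ U) (hV : ContDiffOn ℝ 1 V U) (L h : ℝ)
    (hloc : LocalCover D V L h)
    (ε : ℝ) (hε : 0 < ε) :
    ∃ (k : ℕ) (c a b g : Fin k → EuclideanSpace ℝ (Fin 2)),
      (∀ i, a i ≠ 0 ∧ ‖b i‖ = ‖a i‖ ∧ inner ℝ (a i) (b i) = 0) ∧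
      {z : ℝ × EuclideanSpace ℝ (Fin 2) | ∃ p ∈ D, abs z.1 ≤ L ∧ z.2 = p + z.1 • V p} ⊆
        ⋃ i, {z : ℝ × EuclideanSpace ℝ (Fin 2) | ∃ x ∈ Set.Icc (0 : ℝ) 1, ∃ y ∈ Set.Icc (0 : ℝ) 1,
          z.2 = c i + x • a i + y • b i + z.1 • g i} ∧
      ∑ i, ‖a i‖ ^ 2 / Real.sqrt (1 + (g i 0) ^ 2 + h ^ 2 * (g i 1) ^ 2) ≤
        (∫ p in D, 1 / Real.sqrt (1 + (V p 0) ^ 2 + h ^ 2 * (V p 1) ^ 2)) + ε :=
  sqCover_of_local hD (continuousOn_Jfun ((hV.continuousOn).mono hDU) h) hloc hε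

end Crest.Agent.Helper19
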