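import Crest.Agent.Helper19.Ruled.Defs

/-!
# Row 211, S0326: from local square covers to the global statement

`sqCover_of_local`: if `D` is compact, `Jfun V h` is continuous on `D` and `LocalCover D V L h`
holds, then for every `ε > 0` the set `D` has a square cover of cost `≤ ∫_D J + ε`.
-/

set_option autoImplicit false

namespace Crest.Agent.Helper19

open MeasureTheory Set Metric Topology Filter

/-! ### Algebra of square covers -/

theorem SqCover.mono {V : E2 → E2} {L h : ℝ} {D₁ D₂ : Set E2} {c₁ c₂ : ℝ}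
    (hc : SqCover V L h D₂ c₁) (hD : D₁ ⊆ D₂) (hle : c₁ ≤ c₂) : SqCover V L h D₁ c₂ := by
  obtain ⟨k, c, a, b, g, hsq, hcov, hcost⟩ := hc
  refine ⟨k, c, a, b, g, hsq, ?_, hcost.trans hle⟩
  rintro z ⟨p, hp, hz, hz2⟩
  exact hcov ⟨p, hD hp, hz, hz2⟩

theorem sqCover_empty (V : E2 → E2) (L h : ℝ) : SqCover V L h ∅ 0 := by
  refine ⟨0, Fin.elim0, Fin.elim0, Fin.elim0, Fin.elim0, fun i => i.elim0, ?_, by simp⟩
  rintro z ⟨p, hp, -⟩
  exact absurd hp (notMem_empty p)

theorem SqCover.union {V : E2 → E2} {L h : ℝ} {D₁ D₂ : Set E2} {c₁ c₂ : ℝ}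
    (h₁ : SqCover V L h D₁ c₁) (h₂ : SqCover V L h D₂ c₂) :
    SqCover V L h (D₁ ∪ D₂) (c₁ + c₂) := by
  obtain ⟨k₁, c1, a1, b1, g1, hsq1, hcov1, hcost1⟩ := h₁
  obtain ⟨k₂, c2, a2, b2, g2, hsq2, hcov2, hcost2⟩ := h₂
  refine ⟨k₁ + k₂, Fin.append c1 c2, Fin.append a1 a2, Fin.append b1 b2, Fin.append g1 g2,
    ?_, ?_, ?_⟩
  · intro i
    refine Fin.addCases (fun i => ?_) (fun i => ?_) i
    · simpa using hsq1 i
    · simpa using hsq2 i
  · rintro z ⟨p, hp | hp, hz, hz2⟩
    · obtain ⟨i, hi⟩ := mem_iUnion.1 (hcov1 ⟨p, hp, hz, hz2⟩)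
      refine mem_iUnion.2 ⟨Fin.castAdd k₂ i, ?_⟩
      simpa using hi
    · obtain ⟨i, hi⟩ := mem_iUnion.1 (hcov2 ⟨p, hp, hz, hz2⟩)
      refine mem_iUnion.2 ⟨Fin.natAdd k₁ i, ?_⟩
      simpa using hi
  · rw [Fin.sum_univ_add]
    simp only [Fin.append_left, Fin.append_right]
    exact add_le_add hcost1 hcost2

theorem sqCover_biUnion {V : E2 → E2} {L h : ℝ} {ι : Type*} (s : Finset ι) (D : ι → Set E2)
    (cost : ι → ℝ) (H : ∀ j ∈ s, SqCover V L h (D j) (cost j)) :
    SqCover V L h (⋃ j ∈ s, D j) (∑ j ∈ s, cost j) := by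
  classical
  induction s using Finset.induction_on with
  | empty => simpa using sqCover_empty V L h
  | insert j s hj IH =>
    rw [Finset.set_biUnion_insert, Finset.sum_insert hj]
    exact (H j (Finset.mem_insert_self j s)).union
      (IH fun i hi => H i (Finset.mem_insert_of_mem hi))

/-! ### Grid cells -/

/-- Closed grid cell of side `r` with integer index `m`. -/
def gcell (r : ℝ) (m : Fin 2 → ℤ) : Set E2 :=
  {x | ∀ i, r * m i ≤ x i ∧ x i ≤ r * (m i + 1)}

/-- Half-open grid cell of side `r` with integer index `m`. -/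
def hcell (r : ℝ) (m : Fin 2 → ℤ) : Set E2 :=
  {x | ∀ i, r * m i ≤ x i ∧ x i < r * (m i + 1)}

theorem hcell_subset_gcell (r : ℝ) (m : Fin 2 → ℤ) : hcell r m ⊆ gcell r m :=
  fun _ hx i => ⟨(hx i).1, (hx i).2.le⟩

theorem isClosed_gcell (r : ℝ) (m : Fin 2 → ℤ) : IsClosed (gcell r m) := by
  have : gcell r m = ⋂ i, ({x : E2 | r * m i ≤ x i} ∩ {x : E2 | x i ≤ r * (m i + 1)}) := by
    ext x; simp [gcell]
  rw [this]
  refine isClosed_iInter fun i => IsClosed.inter ?_ ?_
  · exact isClosed_le continuous_const (PiLp.continuous_apply 2 _ i)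
  · exact isClosed_le (PiLp.continuous_apply 2 _ i) continuous_const

theorem measurableSet_hcell (r : ℝ) (m : Fin 2 → ℤ) : MeasurableSet (hcell r m) := by
  have : hcell r m = ⋂ i, ({x : E2 | r * m i ≤ x i} ∩ {x : E2 | x i < r * (m i + 1)}) := by
    ext x; simp [hcell]
  rw [this]
  refine MeasurableSet.iInter fun i => MeasurableSet.inter ?_ ?_
  · exact (isClosed_le continuous_const (PiLp.continuous_apply 2 _ i)).measurableSet
  · exact (isOpen_lt (PiLp.continuous_apply 2 _ i) continuous_const).measurableSet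

theorem mem_hcell_iff {r : ℝ} (hr : 0 < r) (m : Fin 2 → ℤ) (x : E2) :
    x ∈ hcell r m ↔ m = fun i => ⌊x i / r⌋ := by
  constructor
  · intro hx
    funext i
    symm
    rw [Int.floor_eq_iff]
    obtain ⟨h1, h2⟩ := hx i
    constructor
    · rw [le_div_iff₀ hr]; linarith
    · rw [div_lt_iff₀ hr]; linarith
  · rintro rfl i
    have h1 := Int.floor_le (x i / r)
    have h2 := Int.lt_floor_add_one (x i / r)
    rw [le_div_iff₀ hr] at h1
    rw [div_lt_iff₀ hr] at h2
    constructor <;> linarith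

theorem disjoint_hcell {r : ℝ} (hr : 0 < r) {m m' : Fin 2 → ℤ} (hne : m ≠ m') :
    Disjoint (hcell r m) (hcell r m') := by
  rw [Set.disjoint_left]
  intro x hx hx'
  rw [mem_hcell_iff hr] at hx hx'
  exact hne (hx.trans hx'.symm)

theorem dist_le_of_mem_gcell {r : ℝ} (hr : 0 < r) {m : Fin 2 → ℤ} {x y : E2}
    (hx : x ∈ gcell r m) (hy : y ∈ gcell r m) : dist x y ≤ 2 * r := by
  rw [EuclideanSpace.dist_eq]
  have hc : ∀ i, dist (x i) (y i) ^ 2 ≤ r ^ 2 := by
    intro i
    obtain ⟨h1, h2⟩ := hx i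
    obtain ⟨h3, h4⟩ := hy i
    rw [Real.dist_eq, sq_abs]
    have : |x i - y i| ≤ r := by rw [abs_le]; constructor <;> linarith
    calc (x i - y i) ^ 2 = |x i - y i| ^ 2 := (sq_abs _).symm
      _ ≤ r ^ 2 := pow_le_pow_left₀ (abs_nonneg _) this 2
  have hs : ∑ i, dist (x i) (y i) ^ 2 ≤ (2 * r) ^ 2 := by
    rw [Fin.sum_univ_two]
    nlinarith [hc 0, hc 1]
  calc Real.sqrt (∑ i, dist (x i) (y i) ^ 2) ≤ Real.sqrt ((2 * r) ^ 2) := Real.sqrt_le_sqrt hs
    _ = 2 * r := Real.sqrt_sq (by positivity)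

/-- Coordinate hyperplanes are Lebesgue-null. -/
theorem volume_coord_eq (i : Fin 2) (c : ℝ) : volume {x : E2 | x i = c} = 0 := by
  have hker : LinearMap.ker (EuclideanSpace.proj i : E2 →L[ℝ] ℝ).toLinearMap ≠ ⊤ := by
    intro htop
    have hmem : EuclideanSpace.single i (1 : ℝ) ∈
        LinearMap.ker (EuclideanSpace.proj i : E2 →L[ℝ] ℝ).toLinearMap := by
      rw [htop]; exact Submodule.mem_top
    simp at hmem
  have h0 := Measure.addHaar_submodule (volume : Measure E2) _ hker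
  have hset : {x : E2 | x i = c} = (fun x : E2 => x + (-EuclideanSpace.single i c)) ⁻¹'
      (LinearMap.ker (EuclideanSpace.proj i : E2 →L[ℝ] ℝ).toLinearMap : Set E2) := by
    ext x
    simp [sub_eq_zero, ← sub_eq_add_neg]
  rw [hset, measure_preimage_add_right]
  exact h0

theorem volume_gcell_diff_hcell (r : ℝ) (m : Fin 2 → ℤ) : volume (gcell r m \ hcell r m) = 0 := by
  refine measure_mono_null (t := ⋃ i, {x : E2 | x i = r * (m i + 1)}) ?_ ?_
  · rintro x ⟨hx, hx'⟩
    simp only [hcell, mem_ofPred_eq, not_forall, not_and, not_lt] at hx'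
    obtain ⟨i, hi⟩ := hx'
    exact mem_iUnion.2 ⟨i, le_antisymm (hx i).2 (hi (hx i).1)⟩
  · exact (measure_iUnion_null_iff).2 fun i => volume_coord_eq i _

theorem inter_gcell_ae_eq (D : Set E2) (r : ℝ) (m : Fin 2 → ℤ) :
    (D ∩ gcell r m : Set E2) =ᵐ[volume] (D ∩ hcell r m : Set E2) := by
  have h1 : (D ∩ hcell r m : Set E2) ≤ᵐ[volume] (D ∩ gcell r m : Set E2) :=
    (inter_subset_inter_right D (hcell_subset_gcell r m)).eventuallyLE
  have h2 : (D ∩ gcell r m : Set E2) ≤ᵐ[volume] (D ∩ hcell r m : Set E2) := by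
    rw [ae_le_set]
    refine measure_mono_null ?_ (volume_gcell_diff_hcell r m)
    rintro x ⟨⟨hxD, hxg⟩, hx'⟩
    exact ⟨hxg, fun hxh => hx' ⟨hxD, hxh⟩⟩
  exact h2.antisymm h1

/-- Sum of the integrals over the closed grid pieces is at most the integral over `D`. -/
theorem sum_integral_gcell_le {D : Set E2} (hDm : MeasurableSet D) {f : E2 → ℝ}
    (hf : IntegrableOn f D) (hf0 : ∀ x, 0 ≤ f x) {r : ℝ} (hr : 0 < r)
    (S : Finset (Fin 2 → ℤ)) :
    ∑ m ∈ S, ∫ x in D ∩ gcell r m, f x ≤ ∫ x in D, f x := by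
  have e1 : ∀ m ∈ S, ∫ x in D ∩ gcell r m, f x = ∫ x in D ∩ hcell r m, f x :=
    fun m _ => setIntegral_congr_set (inter_gcell_ae_eq D r m)
  rw [Finset.sum_congr rfl e1]
  rw [← integral_biUnion_finset S (fun m _ => hDm.inter (measurableSet_hcell r m)) ?_
    (fun m _ => hf.mono_set inter_subset_left)]
  · refine setIntegral_mono_set hf (Eventually.of_forall hf0) (Eventually.of_forall ?_)
    intro x hx
    obtain ⟨m, -, hxm⟩ := mem_iUnion₂.1 hx
    exact hxm.1
  · intro m _ m' _ hne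
    exact (disjoint_hcell hr hne).mono inter_subset_right inter_subset_right

/-- The index of the half-open cell containing `x`. -/
noncomputable def cellIdx (r : ℝ) (x : E2) : Fin 2 → ℤ := fun i => ⌊x i / r⌋

theorem mem_gcell_cellIdx {r : ℝ} (hr : 0 < r) (x : E2) : x ∈ gcell r (cellIdx r x) :=
  hcell_subset_gcell _ _ ((mem_hcell_iff hr _ x).2 rfl)

/-- A bounded set meets only finitely many cells. -/
theorem exists_finset_cells {D : Set E2} (hD : Bornology.IsBounded D) {r : ℝ} (hr : 0 < r) :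
    ∃ S : Finset (Fin 2 → ℤ), ∀ x ∈ D, cellIdx r x ∈ S := by
  obtain ⟨R, hR⟩ := hD.exists_norm_le
  refine ⟨Fintype.piFinset fun _ => Finset.Icc ⌊-R / r⌋ ⌊R / r⌋, fun x hx => ?_⟩
  rw [Fintype.mem_piFinset]
  intro i
  have hxi : |x i| ≤ R := by
    have := PiLp.norm_apply_le x i
    rw [Real.norm_eq_abs] at this
    exact this.trans (hR x hx)
  rw [abs_le] at hxi
  rw [Finset.mem_Icc]
  constructor
  · exact Int.floor_le_floor (div_le_div_of_nonneg_right (by linarith) hr.le)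
  · exact Int.floor_le_floor (div_le_div_of_nonneg_right hxi.2 hr.le)

/-! ### The global statement -/

theorem Jfun_nonneg (V : E2 → E2) (h : ℝ) (p : E2) : 0 ≤ Jfun V h p := by
  unfold Jfun
  positivity

/-- **Global assembly for S0326.** -/
theorem sqCover_of_local {D : Set E2} (hD : IsCompact D) {V : E2 → E2} {L h : ℝ}
    (hJ : ContinuousOn (Jfun V h) D) (hloc : LocalCover D V L h) {ε : ℝ} (hε : 0 < ε) :
    SqCover V L h D ((∫ p in D, Jfun V h p) + ε) := by
  have hDm : MeasurableSet D := hD.measurableSet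
  have hJi : IntegrableOn (Jfun V h) D := hJ.integrableOn_compact hD
  have hvolD : volume D ≠ ⊤ := hD.measure_lt_top.ne
  have h1i : IntegrableOn (fun _ : E2 => (1 : ℝ)) D := integrableOn_const hvolD
  set I := ∫ p in D, Jfun V h p with hI
  set vol := (volume D).toReal with hvol
  have hI0 : 0 ≤ I := integral_nonneg fun p => Jfun_nonneg V h p
  have hvol0 : 0 ≤ vol := ENNReal.toReal_nonneg
  -- choice of θ
  set θ := ε / (2 * (I + vol + 1)) with hθ
  have hden : 0 < 2 * (I + vol + 1) := by positivity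
  have hθ0 : 0 < θ := div_pos hε hden
  have hθle : θ * (I + vol) ≤ ε / 2 := by
    rw [hθ, div_mul_eq_mul_div, div_le_div_iff₀ hden (by norm_num : (0 : ℝ) < 2)]
    nlinarith
  obtain ⟨δ, hδ, hpiece⟩ := hloc θ hθ0
  -- the grid
  set r := δ / 2 with hr
  have hr0 : 0 < r := half_pos hδ
  obtain ⟨S, hS⟩ := exists_finset_cells hD.isBounded hr0
  set ε' := ε / (2 * (S.card + 1)) with hε'
  have hε'0 : 0 < ε' := by positivity
  have hcov : ∀ m ∈ S, SqCover V L h (D ∩ gcell r m)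
      ((1 + θ) * (∫ p in D ∩ gcell r m, Jfun V h p) + θ * (volume (D ∩ gcell r m)).toReal + ε') := by
    intro m _
    refine hpiece (D ∩ gcell r m) inter_subset_left (hD.inter_right (isClosed_gcell r m)) ?_ ε' hε'0
    intro x hx y hy
    have := dist_le_of_mem_gcell hr0 hx.2 hy.2
    rw [hr] at this
    linarith
  have hunion := sqCover_biUnion S (fun m => D ∩ gcell r m) _ hcov
  refine hunion.mono ?_ ?_
  · intro x hx
    exact mem_iUnion₂.2 ⟨cellIdx r x, hS x hx, hx, mem_gcell_cellIdx hr0 x⟩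
  · rw [Finset.sum_add_distrib, Finset.sum_add_distrib, ← Finset.mul_sum, ← Finset.mul_sum,
      Finset.sum_const, nsmul_eq_mul]
    have hs1 : ∑ m ∈ S, ∫ p in D ∩ gcell r m, Jfun V h p ≤ I :=
      sum_integral_gcell_le hDm hJi (Jfun_nonneg V h) hr0 S
    have hs2 : ∑ m ∈ S, (volume (D ∩ gcell r m)).toReal ≤ vol := by
      have := sum_integral_gcell_le hDm h1i (fun _ => zero_le_one) hr0 S
      simpa [setIntegral_const, Measure.real] using this
    have hs3 : (S.card : ℝ) * ε' ≤ ε / 2 := by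
      rw [hε', mul_div_assoc', div_le_div_iff₀ (by positivity) (by norm_num : (0 : ℝ) < 2)]
      nlinarith
    have h4 : (1 + θ) * ∑ m ∈ S, ∫ p in D ∩ gcell r m, Jfun V h p ≤ (1 + θ) * I :=
      mul_le_mul_of_nonneg_left hs1 (by linarith)
    have h5 : θ * ∑ m ∈ S, (volume (D ∩ gcell r m)).toReal ≤ θ * vol :=
      mul_le_mul_of_nonneg_left hs2 hθ0.le
    nlinarith

end Crest.Agent.Helper19
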